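import Vale.Agent.Lib.P064t.Thin
import Vale.Agent.Lib.P064k.MainUni

/-!
The first question of the problem for edge transitive graphs, from the thinning inequality.
-/

namespace Vale.Agent.Lib.P064t

open Finset SimpleGraph Vale.Agent.Lib.P064 Vale.Agent.Lib.P064k
open scoped Classical Nat

set_option linter.unusedSectionVars false
set_option linter.unusedVariables false

variable {U : Type} [Fintype U] {Z : Type} [Fintype Z]

/-- The pairs covered by a map. -/
noncomputable def imgO (F : SimpleGraph Z) (z : Z → U) : Finset (Sym2 U) :=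
  (edgesF F).image (Sym2.map z)

/-- The injective maps sending the edges of `F` into `W`. -/
def Good (F : SimpleGraph Z) (W : Finset (Sym2 U)) (z : Z → U) : Prop :=
  Function.Injective z ∧ imgO F z ⊆ W

/-- The image of a set of pairs under a permutation. -/
noncomputable def permW (σ : Equiv.Perm U) (W : Finset (Sym2 U)) : Finset (Sym2 U) :=
  W.image (Sym2.map σ)

/-- The labelled copies. -/
noncomputable def family (E : Finset (Sym2 U)) : Finset (Finset (Sym2 U)) :=
  (Finset.univ : Finset (Equiv.Perm U)).image (fun σ => permW σ E)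

/-- The good maps. -/
noncomputable def goodSet (F : SimpleGraph Z) (W : Finset (Sym2 U)) : Finset (Z → U) :=
  Finset.univ.filter (Good F W)

lemma map_perm_inj (σ : Equiv.Perm U) : Function.Injective (Sym2.map σ) :=
  Sym2.map.injective σ.injective

lemma imgO_comp (F : SimpleGraph Z) (σ : Equiv.Perm U) (z : Z → U) :
    imgO F (σ ∘ z) = permW σ (imgO F z) := by
  unfold imgO permW
  rw [Finset.image_image]
  refine Finset.image_congr fun e _ => ?_
  induction e using Sym2.ind with
  | _ a b => rfl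

lemma good_perm (F : SimpleGraph Z) (σ : Equiv.Perm U) (W : Finset (Sym2 U)) (z : Z → U) :
    Good F (permW σ W) (σ ∘ z) ↔ Good F W z := by
  unfold Good
  rw [imgO_comp]
  unfold permW
  rw [Finset.image_subset_image_iff (map_perm_inj σ)]
  constructor
  · rintro ⟨h1, h2⟩
    exact ⟨fun a b h => h1 (by simp [h]), h2⟩
  · rintro ⟨h1, h2⟩
    exact ⟨σ.injective.comp h1, h2⟩

lemma perm_comp_cancel (σ : Equiv.Perm U) (z : Z → U) : σ.symm ∘ (σ ∘ z) = z := by
  funext a
  simp

lemma perm_comp_cancel' (σ : Equiv.Perm U) (z : Z → U) : σ ∘ (σ.symm ∘ z) = z := by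
  funext a
  simp

lemma card_good_perm (F : SimpleGraph Z) (σ : Equiv.Perm U) (W : Finset (Sym2 U)) :
    (goodSet F (permW σ W)).card = (goodSet F W).card := by
  symm
  refine Finset.card_nbij' (fun z => σ ∘ z) (fun z => σ.symm ∘ z) ?_ ?_ ?_ ?_
  · intro z hz
    have hz' : Good F W z := (Finset.mem_filter.mp hz).2
    exact Finset.mem_coe.mpr (Finset.mem_filter.mpr ⟨Finset.mem_univ _, (good_perm F σ W z).mpr hz'⟩)
  · intro z hz
    have hz' : Good F (permW σ W) z := (Finset.mem_filter.mp hz).2
    have h1 : Good F (permW σ W) (σ ∘ (σ.symm ∘ z)) := by rwa [perm_comp_cancel']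
    exact Finset.mem_coe.mpr
      (Finset.mem_filter.mpr ⟨Finset.mem_univ _, (good_perm F σ W _).mp h1⟩)
  · intro z _
    exact perm_comp_cancel σ z
  · intro z _
    exact perm_comp_cancel' σ z

lemma mem_cover_comp (F : SimpleGraph Z) (σ : Equiv.Perm U) (b : Sym2 U) (z : Z → U) :
    Sym2.map σ b ∈ imgO F (σ ∘ z) ↔ b ∈ imgO F z := by
  rw [imgO_comp]
  unfold permW
  rw [Finset.mem_image]
  constructor
  · rintro ⟨c, hc, hcb⟩
    rwa [← map_perm_inj σ hcb]
  · intro h
    exact ⟨b, h, rfl⟩

lemma card_cover_perm (F : SimpleGraph Z) (σ : Equiv.Perm U) (W : Finset (Sym2 U)) (b : Sym2 U) :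
    ((goodSet F (permW σ W)).filter (fun z => Sym2.map σ b ∈ imgO F z)).card =
      ((goodSet F W).filter (fun z => b ∈ imgO F z)).card := by
  symm
  refine Finset.card_nbij' (fun z => σ ∘ z) (fun z => σ.symm ∘ z) ?_ ?_ ?_ ?_
  · intro z hz
    have hz1 := Finset.mem_filter.mp (Finset.mem_coe.mp hz)
    have hz' : Good F W z := (Finset.mem_filter.mp hz1.1).2
    refine Finset.mem_coe.mpr (Finset.mem_filter.mpr ⟨Finset.mem_filter.mpr
      ⟨Finset.mem_univ _, (good_perm F σ W z).mpr hz'⟩, (mem_cover_comp F σ b z).mpr hz1.2⟩)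
  · intro z hz
    have hz1 := Finset.mem_filter.mp (Finset.mem_coe.mp hz)
    have hz' : Good F (permW σ W) z := (Finset.mem_filter.mp hz1.1).2
    have h1 : Good F (permW σ W) (σ ∘ (σ.symm ∘ z)) := by rwa [perm_comp_cancel']
    have h2 : Sym2.map σ b ∈ imgO F (σ ∘ (σ.symm ∘ z)) := by
      rw [perm_comp_cancel']
      exact hz1.2
    refine Finset.mem_coe.mpr (Finset.mem_filter.mpr ⟨Finset.mem_filter.mpr
      ⟨Finset.mem_univ _, (good_perm F σ W _).mp h1⟩, (mem_cover_comp F σ b _).mp h2⟩)
  · intro z _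
    exact perm_comp_cancel σ z
  · intro z _
    exact perm_comp_cancel' σ z

lemma card_imgO (F : SimpleGraph Z) {z : Z → U} (hz : Function.Injective z) :
    (imgO F z).card = numEdges F := by
  unfold imgO
  rw [Finset.card_image_of_injective _ (Sym2.map.injective hz), card_edgesF]

/-- Double count of the pairs covered. -/
lemma sum_cover (F : SimpleGraph Z) (E : Finset (Sym2 U)) :
    ∑ b ∈ E, ((goodSet F E).filter (fun z => b ∈ imgO F z)).card =
      numEdges F * (goodSet F E).card := by
  have h1 : ∀ b, ((goodSet F E).filter (fun z => b ∈ imgO F z)).card =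
      ∑ z ∈ goodSet F E, if b ∈ imgO F z then 1 else 0 := fun b => Finset.card_filter _ _
  simp_rw [h1]
  rw [Finset.sum_comm, mul_comm, ← smul_eq_mul, ← Finset.sum_const]
  refine Finset.sum_congr rfl fun z hz => ?_
  have hz' : Good F E z := (Finset.mem_filter.mp hz).2
  rw [← Finset.card_filter]
  have h2 : E.filter (fun b => b ∈ imgO F z) = imgO F z := by
    ext b
    simp only [Finset.mem_filter]
    exact ⟨fun h => h.2, fun h => ⟨hz'.2 h, h⟩⟩
  rw [h2, card_imgO F hz'.1]

/-- The count of injective maps. -/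
lemma card_inj (n : ℕ) (hU : Fintype.card U = n) :
    (Finset.univ.filter (fun z : Z → U => Function.Injective z)).card =
      n.descFactorial (Fintype.card Z) := by
  have h2 : (Finset.univ.filter (fun f : Z → U => Function.Injective f)).card
      = Fintype.card (Z ↪ U) := by
    rw [← Fintype.card_subtype]
    exact Fintype.card_congr (Equiv.subtypeInjectiveEquivEmbedding Z U)
  rw [h2, Fintype.card_embedding_eq, hU]

/-- The masses. -/
noncomputable def Pm (F : SimpleGraph Z) (E W : Finset (Sym2 U)) (z : Z → U) : ℝ :=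
  if W ∈ family E ∧ Good F W z then 1 else 0

/-- Membership in `X`. -/
def xm (W : Finset (Sym2 U)) (a : Sym2 U) : Prop := a ∈ W

/-- Membership in `O`. -/
def om (F : SimpleGraph Z) (z : Z → U) (a : Sym2 U) : Prop := a ∈ imgO F z

lemma Pm_nonneg (F : SimpleGraph Z) (E W : Finset (Sym2 U)) (z : Z → U) : 0 ≤ Pm F E W z := by
  unfold Pm
  split_ifs <;> norm_num

lemma Pm_eta (F : SimpleGraph Z) (E W : Finset (Sym2 U)) (z : Z → U) : eta (Pm F E W z) = 0 := by
  unfold Pm
  split_ifs
  · exact eta_one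
  · exact eta_zero

lemma Pm_supp (F : SimpleGraph Z) (E W : Finset (Sym2 U)) (z : Z → U) (a : Sym2 U)
    (hne : Pm F E W z ≠ 0) (ho : om F z a) : xm W a := by
  have h1 : W ∈ family E ∧ Good F W z := by
    by_contra h
    exact hne (if_neg h)
  exact h1.2.2 ho

lemma mem_family {E W : Finset (Sym2 U)} (hW : W ∈ family E) : ∃ σ : Equiv.Perm U, permW σ E = W := by
  obtain ⟨σ, _, hσ⟩ := Finset.mem_image.mp hW
  exact ⟨σ, hσ⟩

lemma self_mem_family (E : Finset (Sym2 U)) : E ∈ family E := by
  refine Finset.mem_image.mpr ⟨1, Finset.mem_univ _, ?_⟩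
  unfold permW
  ext a
  simp only [Finset.mem_image]
  constructor
  · rintro ⟨c, hc, rfl⟩
    have : Sym2.map (⇑(1 : Equiv.Perm U)) c = c := by
      induction c using Sym2.ind with
      | _ x y => rfl
    rwa [this]
  · intro h
    refine ⟨a, h, ?_⟩
    induction a using Sym2.ind with
    | _ x y => rfl

lemma Pm_of_mem (F : SimpleGraph Z) {E W : Finset (Sym2 U)} (hW : W ∈ family E) (z : Z → U) :
    Pm F E W z = if Good F W z then (1 : ℝ) else 0 := by
  unfold Pm
  simp [hW]

lemma mass_Pm (F : SimpleGraph Z) {E W : Finset (Sym2 U)} (hW : W ∈ family E) :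
    mass (Pm F E) W = ((goodSet F E).card : ℝ) := by
  obtain ⟨σ, rfl⟩ := mem_family hW
  unfold mass
  simp_rw [Pm_of_mem F hW]
  rw [Finset.sum_boole]
  have h2 := card_good_perm F σ E
  unfold goodSet at h2
  rw [h2]
  rfl

lemma cover_Pm (F : SimpleGraph Z) {E : Finset (Sym2 U)} (hE : 1 ≤ E.card)
    (htrans : ∀ a ∈ E, ∀ b ∈ E, ∃ τ : Equiv.Perm U, permW τ E = E ∧ Sym2.map τ a = b)
    {W : Finset (Sym2 U)} (hW : W ∈ family E) {a : Sym2 U} (haW : xm W a) :
    ((numEdges F : ℝ) / E.card) * mass (Pm F E) W ≤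
      ∑ z ∈ Finset.univ.filter (fun z => om F z a), Pm F E W z := by
  have hNpos : (0 : ℝ) < E.card := by exact_mod_cast hE
  rw [mass_Pm F hW]
  obtain ⟨σ, rfl⟩ := mem_family hW
  obtain ⟨b, hb, rfl⟩ := Finset.mem_image.mp haW
  obtain ⟨b₀, hb₀⟩ := Finset.card_pos.mp (by omega : 0 < E.card)
  set c₀ := ((goodSet F E).filter (fun z => b₀ ∈ imgO F z)).card with hc₀
  have hcconst : ∀ b ∈ E, ((goodSet F E).filter (fun z => b ∈ imgO F z)).card = c₀ := by
    intro b hb
    obtain ⟨τ, hτ1, hτ2⟩ := htrans b hb b₀ hb₀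
    have h1 := card_cover_perm F τ E b
    rw [hτ1, hτ2] at h1
    exact h1.symm
  have hcN : E.card * c₀ = numEdges F * (goodSet F E).card := by
    have h1 := sum_cover F E
    rw [Finset.sum_congr rfl hcconst, Finset.sum_const, smul_eq_mul] at h1
    exact h1
  have h1 : ∑ z ∈ Finset.univ.filter (fun z => om F z (Sym2.map σ b)), Pm F E (permW σ E) z =
      c₀ := by
    simp_rw [Pm_of_mem F hW]
    rw [Finset.sum_boole]
    have h3 := card_cover_perm F σ E b
    rw [hcconst b hb] at h3
    rw [← h3]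
    refine congrArg (fun s : Finset (Z → U) => (s.card : ℝ)) ?_
    ext z
    constructor
    · intro h
      rcases Finset.mem_filter.mp h with ⟨h5, h6⟩
      exact Finset.mem_filter.mpr ⟨Finset.mem_filter.mpr ⟨Finset.mem_univ _, h6⟩,
        (Finset.mem_filter.mp h5).2⟩
    · intro h
      rcases Finset.mem_filter.mp h with ⟨h5, h6⟩
      exact Finset.mem_filter.mpr ⟨Finset.mem_filter.mpr ⟨Finset.mem_univ _, h6⟩,
        (Finset.mem_filter.mp h5).2⟩
  rw [h1]
  have h4 : (E.card : ℝ) * c₀ = numEdges F * ((goodSet F E).card : ℝ) := by exact_mod_cast hcN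
  apply le_of_eq
  field_simp
  linarith

lemma sum_mass_Pm (F : SimpleGraph Z) (E : Finset (Sym2 U)) :
    ∑ W ∈ family E, mass (Pm F E) W = ((family E).card : ℝ) * ((goodSet F E).card : ℝ) := by
  rw [Finset.sum_congr rfl (fun W hW => mass_Pm F hW), Finset.sum_const, nsmul_eq_mul]

lemma Hh_Pm (F : SimpleGraph Z) (E : Finset (Sym2 U)) (hEm : 0 < (goodSet F E).card) :
    Hh (Pm F E) (family E) = ((family E).card : ℝ) * ((goodSet F E).card : ℝ) *
      Real.log (family E).card := by
  have hEm' : (0 : ℝ) < (goodSet F E).card := by exact_mod_cast hEm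
  have h𝒲pos : (0 : ℝ) < (family E).card := by
    exact_mod_cast Finset.card_pos.mpr ⟨E, self_mem_family E⟩
  unfold Hh
  rw [sum_mass_Pm, Finset.sum_congr rfl (fun W hW => by rw [mass_Pm F hW]), Finset.sum_const,
    nsmul_eq_mul]
  unfold eta
  rw [Real.log_mul h𝒲pos.ne' hEm'.ne']
  ring

lemma cnt_Pm (F : SimpleGraph Z) (E : Finset (Sym2 U)) :
    cnt (om F) (Pm F E) Finset.univ (family E) =
      (numEdges F : ℝ) * (((family E).card : ℝ) * ((goodSet F E).card : ℝ)) := by
  unfold cnt
  have h1 : ∀ W ∈ family E, ∑ z, Pm F E W z *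
      (((Finset.univ : Finset (Sym2 U)).filter (fun a => om F z a)).card : ℝ) =
        (numEdges F : ℝ) * mass (Pm F E) W := by
    intro W _
    unfold mass
    rw [Finset.mul_sum]
    refine Finset.sum_congr rfl fun z _ => ?_
    by_cases hz : W ∈ family E ∧ Good F W z
    · have h2 : ((Finset.univ : Finset (Sym2 U)).filter (fun a => om F z a)).card =
          numEdges F := by
        have h3 : (Finset.univ : Finset (Sym2 U)).filter (fun a => om F z a) = imgO F z := by
          ext a
          exact ⟨fun h => (Finset.mem_filter.mp h).2,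
            fun h => Finset.mem_filter.mpr ⟨Finset.mem_univ _, h⟩⟩
        rw [h3, card_imgO F hz.2.1]
      rw [h2]
      ring
    · have h2 : Pm F E W z = 0 := if_neg hz
      rw [h2]
      ring
  rw [Finset.sum_congr rfl h1, ← Finset.mul_sum, sum_mass_Pm]

/-- The lower bound for the conditional entropy. -/
lemma Hc_low (F : SimpleGraph Z) (E : Finset (Sym2 U)) {n : ℕ} (hU : Fintype.card U = n)
    {T c : ℝ} (hT : T = ((family E).card : ℝ) * ((goodSet F E).card : ℝ)) (hc : 0 < c)
    (hcZ : (n.descFactorial (Fintype.card Z) : ℝ) * c = T) :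
    T * Real.log c ≤ Hc (Pm F E) (family E) := by
  set d : (Z → U) → ℝ := fun z => ∑ W ∈ family E, Pm F E W z with hd
  have hd0 : ∀ z, 0 ≤ d z := fun z => Finset.sum_nonneg fun W _ => Pm_nonneg F E W z
  have hHc : Hc (Pm F E) (family E) = ∑ z, d z * Real.log (d z) := by
    unfold Hc
    refine Finset.sum_congr rfl fun z _ => ?_
    rw [Finset.sum_eq_zero (fun W _ => Pm_eta F E W z)]
    unfold eta
    ring
  have hsumd : ∑ z, d z = T := by
    rw [hT, ← sum_mass_Pm]
    simp only [hd]
    rw [Finset.sum_comm]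
    rfl
  have hdinj : ∀ z, ¬ Function.Injective z → d z = 0 := by
    intro z hz
    refine Finset.sum_eq_zero fun W _ => ?_
    exact if_neg fun h => hz h.2.1
  have hInjcard : ((Finset.univ.filter (fun z : Z → U => Function.Injective z)).card : ℝ) =
      (n.descFactorial (Fintype.card Z) : ℝ) := by
    rw [card_inj n hU]
  have h1 : ∀ z, d z * Real.log c + d z - (if Function.Injective z then c else 0) ≤
      d z * Real.log (d z) := by
    intro z
    by_cases hz : Function.Injective z
    · rw [if_pos hz]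
      rcases (hd0 z).eq_or_lt with h | h
      · rw [← h]
        simp
        exact hc.le
      · have h2 := Real.log_le_sub_one_of_pos (show 0 < c / d z by positivity)
        rw [Real.log_div hc.ne' h.ne'] at h2
        have h3 := mul_le_mul_of_nonneg_left h2 h.le
        have h4 : d z * (c / d z - 1) = c - d z := by
          field_simp
        rw [h4] at h3
        linarith
    · rw [if_neg hz, hdinj z hz]
      simp
  have h2 := Finset.sum_le_sum (fun z (_ : z ∈ Finset.univ) => h1 z)
  rw [Finset.sum_sub_distrib, Finset.sum_add_distrib, ← Finset.sum_mul, hsumd,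
    Finset.sum_ite, Finset.sum_const_zero, add_zero, Finset.sum_const, nsmul_eq_mul,
    hInjcard, hcZ] at h2
  rw [hHc]
  linarith

/-- The main bound, for a set of pairs whose stabiliser is transitive on it. -/
theorem good_bound {n : ℕ} (hU : Fintype.card U = n) {E : Finset (Sym2 U)} (hE : 1 ≤ E.card)
    (htrans : ∀ a ∈ E, ∀ b ∈ E, ∃ τ : Equiv.Perm U, permW τ E = E ∧ Sym2.map τ a = b)
    {q : ℝ} (hq : 0 < q) (hself : 1 ≤ q ^ E.card * ((family E).card : ℝ)) (F : SimpleGraph Z) :
    ((goodSet F E).card : ℝ) ≤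
      (n.descFactorial (Fintype.card Z) : ℝ) * (Real.exp 2 * q) ^ numEdges F := by
  set e := numEdges F with he
  set N := E.card with hN
  set Em := (goodSet F E).card with hEm
  have hRHS : 0 ≤ (n.descFactorial (Fintype.card Z) : ℝ) * (Real.exp 2 * q) ^ e := by positivity
  rcases Nat.eq_zero_or_pos Em with h0 | hEmpos
  · rw [h0]
    simpa using hRHS
  obtain ⟨z₀, hz₀⟩ := Finset.card_pos.mp hEmpos
  have hz₀' : Good F E z₀ := (Finset.mem_filter.mp hz₀).2
  have heN : e ≤ N := by
    rw [he, ← card_imgO F hz₀'.1]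
    exact Finset.card_le_card hz₀'.2
  have hNpos : (0 : ℝ) < N := by exact_mod_cast hE
  have hEm' : (0 : ℝ) < Em := by exact_mod_cast hEmpos
  set u : ℝ := (e : ℝ) / N with hu
  have hu0 : 0 ≤ u := by positivity
  have hu1 : u ≤ 1 := (div_le_one hNpos).mpr (by exact_mod_cast heN)
  have h𝒲pos : (0 : ℝ) < (family E).card := by
    exact_mod_cast Finset.card_pos.mpr ⟨E, self_mem_family E⟩
  have hsep : ∀ W ∈ family E, ∀ W' ∈ family E,
      (∀ a ∈ (Finset.univ : Finset (Sym2 U)), xm W a ↔ xm W' a) → W = W' := by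
    intro W _ W' _ h
    ext a
    exact h a (Finset.mem_univ _)
  have hthin := thin xm (om F) (Pm F E) (Pm_nonneg F E) (Pm_supp F E) hu0 hu1 Finset.univ
    (family E) hsep (fun W hW a _ ha => cover_Pm F hE htrans hW ha)
  set T : ℝ := ((family E).card : ℝ) * (Em : ℝ) with hT
  have hTpos : 0 < T := by positivity
  have hZnpos : (0 : ℝ) < (n.descFactorial (Fintype.card Z) : ℝ) := by
    have h1 := card_inj (Z := Z) n hU
    have h2 : 0 < (Finset.univ.filter (fun z : Z → U => Function.Injective z)).card :=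
      Finset.card_pos.mpr ⟨z₀, Finset.mem_filter.mpr ⟨Finset.mem_univ _, hz₀'.1⟩⟩
    rw [h1] at h2
    exact_mod_cast h2
  set Zn : ℝ := (n.descFactorial (Fintype.card Z) : ℝ) with hZn
  set c : ℝ := T / Zn with hc
  have hcpos : 0 < c := by positivity
  have hcZ : Zn * c = T := by
    rw [hc]
    field_simp
  have hlow := Hc_low F E hU hT hcpos hcZ
  rw [Hh_Pm F E hEmpos, cnt_Pm] at hthin
  have hmain : T * Real.log c ≤ T * ((1 - u) * Real.log (family E).card + 2 * e) := by
    refine hlow.trans (hthin.trans (le_of_eq ?_))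
    rw [hT]
    ring
  have hmain' : Real.log c ≤ (1 - u) * Real.log (family E).card + 2 * e :=
    le_of_mul_le_mul_left hmain hTpos
  have hlogc : Real.log c = Real.log (family E).card + Real.log Em - Real.log Zn := by
    rw [hc, Real.log_div hTpos.ne' hZnpos.ne', hT, Real.log_mul h𝒲pos.ne' hEm'.ne']
  have hlog𝒲 : - ((N : ℝ) * Real.log q) ≤ Real.log (family E).card := by
    have h1 : 0 ≤ Real.log (q ^ N * ((family E).card : ℝ)) := Real.log_nonneg hself
    rw [Real.log_mul (by positivity) h𝒲pos.ne', Real.log_pow] at h1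
    linarith
  have huN : u * N = e := by
    rw [hu]
    field_simp
  have hu𝒲 : - ((e : ℝ) * Real.log q) ≤ u * Real.log (family E).card := by
    have h1 := mul_le_mul_of_nonneg_left hlog𝒲 hu0
    have h2 : u * (- ((N : ℝ) * Real.log q)) = - ((e : ℝ) * Real.log q) := by
      rw [← huN]
      ring
    rwa [h2] at h1
  have hfinal : Real.log Em ≤ Real.log (Zn * (Real.exp 2 * q) ^ e) := by
    rw [Real.log_mul hZnpos.ne' (by positivity), Real.log_pow,
      Real.log_mul (Real.exp_pos 2).ne' hq.ne', Real.log_exp]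
    rw [hlogc] at hmain'
    generalize Real.log ((family E).card : ℝ) = w at hmain' hu𝒲
    have h3 : (1 - u) * w = w - u * w := by ring
    rw [h3] at hmain'
    have h4 : (e : ℝ) * (2 + Real.log q) = 2 * e + e * Real.log q := by ring
    rw [h4]
    linarith
  exact (Real.log_le_log_iff hEm' (by positivity)).mp hfinal

/-- The number of labelled copies, from the size of the stabiliser. -/
lemma self_family {E : Finset (Sym2 U)} {q : ℝ} (hq : 0 < q)
    (hmm : (mm E E : ℝ) ≤ ((Fintype.card U)! : ℝ) * q ^ E.card) :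
    1 ≤ q ^ E.card * ((family E).card : ℝ) := by
  have h1 : (Finset.univ : Finset (Equiv.Perm U)).card ≤ mm E E * (family E).card := by
    refine Finset.card_le_mul_card_image _ (mm E E) ?_
    intro W hW
    obtain ⟨σ₀, _, rfl⟩ := Finset.mem_image.mp hW
    refine Finset.card_le_card_of_injOn (fun σ => σ₀⁻¹ * σ) ?_ ?_
    · intro σ hσ
      have hσ' : permW σ E = permW σ₀ E := (Finset.mem_filter.mp (Finset.mem_coe.mp hσ)).2
      refine Finset.mem_coe.mpr (mem_intoP.mpr fun e he => ?_)
      have h2 : Sym2.map σ e ∈ permW σ₀ E := by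
        rw [← hσ']
        exact Finset.mem_image_of_mem _ he
      obtain ⟨e', he', h3⟩ := Finset.mem_image.mp h2
      have h4 : Sym2.map (⇑(σ₀⁻¹ * σ)) e = e' := by
        have h5 : Sym2.map (⇑(σ₀⁻¹ * σ)) e = Sym2.map (⇑σ₀⁻¹) (Sym2.map σ e) := by
          induction e using Sym2.ind with
          | _ x y => rfl
        rw [h5, ← h3]
        induction e' using Sym2.ind with
        | _ x y => simp
      rw [h4]
      exact he'
    · intro σ _ σ' _ h
      exact mul_left_cancel h
  rw [Finset.card_univ, Fintype.card_perm] at h1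
  have h2 : ((Fintype.card U)! : ℝ) ≤ (mm E E : ℝ) * ((family E).card : ℝ) := by
    exact_mod_cast h1
  have hf : (0 : ℝ) < ((Fintype.card U)! : ℝ) := by exact_mod_cast Nat.factorial_pos _
  have h3 : ((Fintype.card U)! : ℝ) * 1 ≤ ((Fintype.card U)! : ℝ) * (q ^ E.card * ((family E).card : ℝ)) := by
    rw [mul_one]
    calc ((Fintype.card U)! : ℝ) ≤ (mm E E : ℝ) * ((family E).card : ℝ) := h2
      _ ≤ (((Fintype.card U)! : ℝ) * q ^ E.card) * ((family E).card : ℝ) :=
          mul_le_mul_of_nonneg_right hmm (by positivity)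
      _ = _ := by ring
  exact le_of_mul_le_mul_left h3 hf

section Glue

variable {V : Type} [Fintype V] {H : SimpleGraph V} {n : ℕ}

/-- The bound on embeddings for an edge transitive graph, on a given set of labels. -/
theorem edge_emb_aux {U : Type} [Fintype U] {ι : V → U} (hι : Function.Injective ι)
    (hU : Fintype.card U = n)
    (hext : ∀ ph : H ≃g H, ∃ τ : Equiv.Perm U, ∀ x, τ (ι x) = ι (ph x))
    {q : ℝ} (hq : 0 < q) (hV : Fintype.card V ≤ n) (hE : 1 ≤ numEdges H)
    (hyp : ∀ F : H.Subgraph, 1 ≤ expCopies n q F.coe)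
    (htr : ∀ a b, a ∈ H.edgeSet → b ∈ H.edgeSet → ∃ ph : H ≃g H, Sym2.map ph a = b)
    {Z : Type} [Fintype Z] (F : SimpleGraph Z) :
    ((Emb F H Finset.univ).card : ℝ) ≤
      (n.descFactorial (Fintype.card Z) : ℝ) * (Real.exp 2 * q) ^ numEdges F := by
  set E : Finset (Sym2 U) := imgE ι (edgesF H) with hEdef
  have hEc : E.card = numEdges H := by
    rw [hEdef, card_imgE hι, card_edgesF]
  have hself := self_count hq hV hyp hι hU.ge (F := E) (Finset.Subset.refl _)
  have hfam := self_family hq hself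
  have htrans : ∀ a ∈ E, ∀ b ∈ E, ∃ τ : Equiv.Perm U, permW τ E = E ∧ Sym2.map τ a = b := by
    intro a ha b hb
    obtain ⟨a', ha', rfl⟩ := Finset.mem_image.mp ha
    obtain ⟨b', hb', rfl⟩ := Finset.mem_image.mp hb
    obtain ⟨ph, hph⟩ := htr a' b' (mem_edgesF.mp ha') (mem_edgesF.mp hb')
    obtain ⟨τ, hτ0⟩ := hext ph
    have hτ : ∀ c : Sym2 V, Sym2.map τ (Sym2.map ι c) = Sym2.map ι (Sym2.map ph c) := by
      intro c
      induction c using Sym2.ind with
      | _ x y =>
        simp only [Sym2.map_pair_eq, hτ0]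
    refine ⟨τ, ?_, ?_⟩
    · refine Finset.eq_of_subset_of_card_le ?_ ?_
      · intro e he
        obtain ⟨e₁, he₁, rfl⟩ := Finset.mem_image.mp he
        obtain ⟨e₂, he₂, rfl⟩ := Finset.mem_image.mp he₁
        rw [hτ]
        refine Finset.mem_image_of_mem _ (mem_edgesF.mpr ?_)
        have h2 := mem_edgesF.mp he₂
        induction e₂ using Sym2.ind with
        | _ x y =>
          exact ph.map_adj_iff.mpr h2
      · unfold permW
        rw [Finset.card_image_of_injective _ (map_perm_inj τ)]
    · rw [hτ, hph]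
  have hbound := good_bound hU (by rw [hEc]; exact hE) htrans hq hfam F
  refine le_trans ?_ hbound
  have hcard : (Emb F H Finset.univ).card ≤ (goodSet F E).card := by
    refine Finset.card_le_card_of_injOn (fun f => ι ∘ f) ?_ ?_
    · intro f hf
      rcases mem_Emb.mp (Finset.mem_coe.mp hf) with ⟨h1, h2, _⟩
      refine Finset.mem_coe.mpr (Finset.mem_filter.mpr ⟨Finset.mem_univ _, hι.comp h1, ?_⟩)
      intro e he
      obtain ⟨a, ha, rfl⟩ := Finset.mem_image.mp he
      have ha' := mem_edgesF.mp ha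
      induction a using Sym2.ind with
      | _ x y =>
        have h3 : s(f x, f y) ∈ edgesF H := mem_edgesF.mpr (h2 x y ha')
        exact Finset.mem_image.mpr ⟨s(f x, f y), h3, rfl⟩
    · intro f _ f' _ h
      exact hι.comp_left h
  exact_mod_cast hcard

/-- The bound on embeddings for an edge transitive graph. -/
theorem edge_embBound {q : ℝ} (hq : 0 < q) (hV : Fintype.card V ≤ n) (hE : 1 ≤ numEdges H)
    (hyp : ∀ F : H.Subgraph, 1 ≤ expCopies n q F.coe)
    (htr : ∀ a b, a ∈ H.edgeSet → b ∈ H.edgeSet → ∃ ph : H ≃g H, Sym2.map ph a = b) :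
    EmbBound H n (Real.exp 2 * q) := by
  intro Z _ F
  have hU : Fintype.card (V ⊕ Fin (n - Fintype.card V)) = n := by
    rw [Fintype.card_sum, Fintype.card_fin]
    omega
  refine edge_emb_aux (U := V ⊕ Fin (n - Fintype.card V)) (ι := Sum.inl) Sum.inl_injective hU ?_
    hq hV hE hyp htr F
  intro ph
  exact ⟨Equiv.sumCongr ph.toEquiv (Equiv.refl _), fun x => rfl⟩

/-- The first question of the problem for edge transitive graphs. -/
theorem pCrit_edge_trans (hn : 2 ≤ n) (hV : Fintype.card V ≤ n) (hE : 1 ≤ numEdges H)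
    (htr : ∀ a b, a ∈ H.edgeSet → b ∈ H.edgeSet → ∃ ph : H ≃g H, Sym2.map ph a = b) :
    pCrit n H ≤ (384 * Real.exp 2) * pExp n H * Real.log n := by
  obtain ⟨hp0, _, hp⟩ := pExp_mem (H := H) hV
  obtain ⟨hppos, hyp2⟩ := hyp_double hV hE hp0 hp
  set p := pExp n H with hpdef
  have hq : 0 < 2 * p := by positivity
  have hs0 : 0 < Real.exp 2 * (2 * p) := by positivity
  have hb := edge_embBound hq hV hE hyp2 htr
  have h1 := pCrit_le_of_bound hs0 hV hb
  refine h1.trans ?_
  have hlr := log_edges_le (H := H) hn hV hE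
  calc Real.exp 2 * (2 * p) * (32 * ((Nat.log 2 (numEdges H) : ℝ) + 1))
      ≤ Real.exp 2 * (2 * p) * (32 * (6 * Real.log n)) := by
        refine mul_le_mul_of_nonneg_left ?_ hs0.le
        linarith
    _ = _ := by ring

end Glue

end Vale.Agent.Lib.P064t
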