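import Mathlib

/-!
A thinning inequality for conditional entropy: if a random subset `O` of a random set `X` contains
every element of `X` with probability at least `u`, then `H(X | O) ≤ (1 - u) H(X) + 2 E |O|`.
All quantities are written with unnormalised masses.
-/

namespace Vale.Agent.Lib.P064t

open Finset
open scoped Classical

set_option linter.unusedSectionVars false
set_option linter.unusedVariables false

/-- The function `- x log x`. -/
noncomputable def eta (x : ℝ) : ℝ := -(x * Real.log x)

lemma eta_zero : eta 0 = 0 := by simp [eta]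

lemma eta_one : eta 1 = 0 := by simp [eta]

/-- The entropy of a pair of masses. -/
noncomputable def H2 (x y : ℝ) : ℝ := eta x + eta y - eta (x + y)

lemma H2_eq (x y : ℝ) : H2 x y =
    x * (Real.log (x + y) - Real.log x) + y * (Real.log (x + y) - Real.log y) := by
  unfold H2 eta
  ring

lemma H2_right_zero (x : ℝ) : H2 x 0 = 0 := by
  simp [H2, eta_zero]

lemma H2_left_zero (y : ℝ) : H2 0 y = 0 := by
  simp [H2, eta_zero]

lemma H2_nonneg {x y : ℝ} (hx : 0 ≤ x) (hy : 0 ≤ y) : 0 ≤ H2 x y := by
  rw [H2_eq]
  have h1 : 0 ≤ x * (Real.log (x + y) - Real.log x) := by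
    rcases hx.eq_or_lt with h | h
    · simp [← h]
    · have := Real.log_le_log h (by linarith : x ≤ x + y)
      exact mul_nonneg hx (by linarith)
  have h2 : 0 ≤ y * (Real.log (x + y) - Real.log y) := by
    rcases hy.eq_or_lt with h | h
    · simp [← h]
    · have := Real.log_le_log h (by linarith : y ≤ x + y)
      exact mul_nonneg hy (by linarith)
  linarith

/-- One term of the log sum inequality. -/
lemma log_term {a b A B : ℝ} (ha : 0 ≤ a) (hb : 0 ≤ b) (hab : a ≤ b) (haA : a ≤ A) (hB : 0 < B) :
    a * (Real.log b - Real.log a) ≤ a * (Real.log B - Real.log A) + b * A / B - a := by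
  rcases ha.eq_or_lt with h | h
  · subst h
    have hA : 0 ≤ A := haA
    simp only [zero_mul, sub_zero, zero_add]
    positivity
  · have hb' : 0 < b := by linarith
    have hA' : 0 < A := by linarith
    have h1 : Real.log (b * A / (a * B)) ≤ b * A / (a * B) - 1 :=
      Real.log_le_sub_one_of_pos (by positivity)
    have h2 : Real.log (b * A / (a * B)) =
        Real.log b + Real.log A - (Real.log a + Real.log B) := by
      rw [Real.log_div (by positivity) (by positivity), Real.log_mul hb'.ne' hA'.ne',
        Real.log_mul h.ne' hB.ne']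
    have h3 : a * Real.log (b * A / (a * B)) ≤ a * (b * A / (a * B) - 1) :=
      mul_le_mul_of_nonneg_left h1 h.le
    have h4 : a * (b * A / (a * B) - 1) = b * A / B - a := by
      field_simp
    rw [h2, h4] at h3
    nlinarith

lemma H2_add {x y x' y' : ℝ} (hx : 0 ≤ x) (hy : 0 ≤ y) (hx' : 0 ≤ x') (hy' : 0 ≤ y') :
    H2 x y + H2 x' y' ≤ H2 (x + x') (y + y') := by
  by_cases hB : x + x' + (y + y') = 0
  · have h1 : x = 0 := by linarith
    have h2 : x' = 0 := by linarith
    have h3 : y = 0 := by linarith
    have h4 : y' = 0 := by linarith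
    subst h1 h2 h3 h4
    simp [H2_right_zero]
  have hB' : 0 < x + x' + (y + y') := lt_of_le_of_ne (by positivity) (Ne.symm hB)
  set B := x + x' + (y + y') with hBdef
  have t1 := log_term (a := x) (b := x + y) (A := x + x') (B := B) hx (by linarith) (by linarith)
    (by linarith) hB'
  have t2 := log_term (a := x') (b := x' + y') (A := x + x') (B := B) hx' (by linarith) (by linarith)
    (by linarith) hB'
  have t3 := log_term (a := y) (b := x + y) (A := y + y') (B := B) hy (by linarith) (by linarith)
    (by linarith) hB'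
  have t4 := log_term (a := y') (b := x' + y') (A := y + y') (B := B) hy' (by linarith) (by linarith)
    (by linarith) hB'
  rw [H2_eq, H2_eq, H2_eq, ← hBdef]
  have e1 : (x + y) * (x + x') / B + (x' + y') * (x + x') / B = x + x' := by
    rw [← add_div, ← add_mul]
    have : x + y + (x' + y') = B := by rw [hBdef]; ring
    rw [this]
    field_simp
  have e2 : (x + y) * (y + y') / B + (x' + y') * (y + y') / B = y + y' := by
    rw [← add_div, ← add_mul]
    have : x + y + (x' + y') = B := by rw [hBdef]; ring
    rw [this]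
    field_simp
  have e3 : (x + x') * (Real.log B - Real.log (x + x')) =
      x * (Real.log B - Real.log (x + x')) + x' * (Real.log B - Real.log (x + x')) := by ring
  have e4 : (y + y') * (Real.log B - Real.log (y + y')) =
      y * (Real.log B - Real.log (y + y')) + y' * (Real.log B - Real.log (y + y')) := by ring
  rw [e3, e4]
  have e5 : x' + y' = y' + x' := by ring
  linarith

lemma H2_sum {ι : Type*} (S : Finset ι) (f g : ι → ℝ) (hf : ∀ i ∈ S, 0 ≤ f i)
    (hg : ∀ i ∈ S, 0 ≤ g i) :
    ∑ i ∈ S, H2 (f i) (g i) ≤ H2 (∑ i ∈ S, f i) (∑ i ∈ S, g i) := by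
  induction S using Finset.induction_on with
  | empty => simp [H2_right_zero]
  | insert a S ha ih =>
    rw [Finset.sum_insert ha, Finset.sum_insert ha, Finset.sum_insert ha]
    have h1 := ih (fun i hi => hf i (Finset.mem_insert_of_mem hi))
      (fun i hi => hg i (Finset.mem_insert_of_mem hi))
    have h2 := H2_add (hf a (Finset.mem_insert_self _ _)) (hg a (Finset.mem_insert_self _ _))
      (Finset.sum_nonneg fun i hi => hf i (Finset.mem_insert_of_mem hi))
      (Finset.sum_nonneg fun i hi => hg i (Finset.mem_insert_of_mem hi))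
    linarith

/-- The scalar inequality. -/
lemma H2_scalar {m₁ m₀ r : ℝ} (h1 : 0 ≤ m₁) (h0 : 0 ≤ m₀) (hr0 : 0 ≤ r) (hr1 : r ≤ 1) :
    H2 (m₁ * (1 - r)) m₀ ≤ (1 - r) * H2 m₁ m₀ + 2 * r * m₁ := by
  rcases h1.eq_or_lt with hm | hm
  · subst hm
    simp [H2_left_zero]
  rcases h0.eq_or_lt with hm0 | hm0
  · subst hm0
    simp only [H2_right_zero, mul_zero, zero_add]
    positivity
  rcases hr1.eq_or_lt with hr | hr
  · subst hr
    simp only [sub_self, mul_zero, H2_left_zero, zero_mul, zero_add]
    positivity
  have hr' : 0 < 1 - r := by linarith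
  have hT : 0 < m₁ + m₀ := by linarith
  have hS : 0 < m₁ * (1 - r) + m₀ := by positivity
  have hST : m₁ * (1 - r) + m₀ ≤ m₁ + m₀ := by nlinarith
  have l1 : Real.log (m₁ * (1 - r)) = Real.log m₁ + Real.log (1 - r) :=
    Real.log_mul hm.ne' hr'.ne'
  have a1 : (m₁ * (1 - r) + m₀) * Real.log (m₁ * (1 - r) + m₀) ≤
      (m₁ * (1 - r) + m₀) * Real.log (m₁ + m₀) :=
    mul_le_mul_of_nonneg_left (Real.log_le_log hS hST) hS.le
  have a2 : -((1 - r) * Real.log (1 - r)) ≤ r := by
    have h2 := Real.log_le_sub_one_of_pos (show 0 < 1 / (1 - r) by positivity)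
    rw [Real.log_div one_ne_zero hr'.ne', Real.log_one, zero_sub] at h2
    have h3 : (1 - r) * (- Real.log (1 - r)) ≤ (1 - r) * (1 / (1 - r) - 1) :=
      mul_le_mul_of_nonneg_left h2 hr'.le
    have h4 : (1 - r) * (1 / (1 - r) - 1) = r := by
      field_simp
      ring
    rw [h4] at h3
    linarith
  have a3 : m₀ * (Real.log (m₁ + m₀) - Real.log m₀) ≤ m₁ := by
    have h2 := Real.log_le_sub_one_of_pos (show 0 < (m₁ + m₀) / m₀ by positivity)
    rw [Real.log_div hT.ne' hm0.ne'] at h2
    have h3 := mul_le_mul_of_nonneg_left h2 hm0.le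
    have h4 : m₀ * ((m₁ + m₀) / m₀ - 1) = m₁ := by
      field_simp
      ring
    rw [h4] at h3
    exact h3
  have a2' := mul_le_mul_of_nonneg_left a2 hm.le
  have a3' := mul_le_mul_of_nonneg_left a3 hr0
  unfold H2 eta
  rw [l1]
  nlinarith

section Thin

variable {α β M : Type*} [Fintype β] (x : α → M → Prop) (o : β → M → Prop) (P : α → β → ℝ)

/-- The mass of a value of `X`. -/
noncomputable def mass (w : α) : ℝ := ∑ z, P w z

/-- The entropy of `X` on `A`. -/
noncomputable def Hh (A : Finset α) : ℝ :=
  ∑ w ∈ A, eta (mass P w) - eta (∑ w ∈ A, mass P w)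

/-- The entropy of `X` given `Z` on `A`. -/
noncomputable def Hc (A : Finset α) : ℝ :=
  ∑ z, (∑ w ∈ A, eta (P w z) - eta (∑ w ∈ A, P w z))

/-- The expected size of the part of `O` in `L`, on `A`. -/
noncomputable def cnt (L : Finset M) (A : Finset α) : ℝ :=
  ∑ w ∈ A, ∑ z, P w z * ((L.filter (fun a => o z a)).card : ℝ)

/-- The thinning inequality. -/
theorem thin {u : ℝ} (hP : ∀ w z, 0 ≤ P w z) (hsupp : ∀ w z a, P w z ≠ 0 → o z a → x w a)
    (hu0 : 0 ≤ u) (hu1 : u ≤ 1) (L : Finset M) :
    ∀ A : Finset α, (∀ w ∈ A, ∀ w' ∈ A, (∀ a ∈ L, x w a ↔ x w' a) → w = w') →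
      (∀ w ∈ A, ∀ a ∈ L, x w a →
        u * mass P w ≤ ∑ z ∈ Finset.univ.filter (fun z => o z a), P w z) →
      Hc P A ≤ (1 - u) * Hh P A + 2 * cnt o P L A := by
  induction L using Finset.induction_on with
  | empty =>
    intro A hsep _
    have hA : A = ∅ ∨ ∃ w, A = {w} := by
      rcases A.eq_empty_or_nonempty with h | ⟨w, hw⟩
      · exact Or.inl h
      · refine Or.inr ⟨w, Finset.eq_singleton_iff_unique_mem.mpr ⟨hw, fun w' hw' => ?_⟩⟩
        exact hsep w' hw' w hw (by simp)
    rcases hA with rfl | ⟨w, rfl⟩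
    · simp [Hc, Hh, cnt, eta_zero]
    · simp [Hc, Hh, cnt]
  | insert a L' ha ih =>
    intro A hsep hcov
    set A₁ := A.filter (fun w => x w a) with hA₁
    set A₀ := A.filter (fun w => ¬ x w a) with hA₀
    have hsub₁ : A₁ ⊆ A := Finset.filter_subset _ _
    have hsub₀ : A₀ ⊆ A := Finset.filter_subset _ _
    have IH₁ := ih A₁ (fun w hw w' hw' h => hsep w (hsub₁ hw) w' (hsub₁ hw') (fun b hb => by
        rcases Finset.mem_insert.mp hb with rfl | hb'
        · exact iff_of_true (Finset.mem_filter.mp hw).2 (Finset.mem_filter.mp hw').2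
        · exact h b hb')) (fun w hw b hb hx => hcov w (hsub₁ hw) b (Finset.mem_insert_of_mem hb) hx)
    have IH₀ := ih A₀ (fun w hw w' hw' h => hsep w (hsub₀ hw) w' (hsub₀ hw') (fun b hb => by
        rcases Finset.mem_insert.mp hb with rfl | hb'
        · exact iff_of_false (Finset.mem_filter.mp hw).2 (Finset.mem_filter.mp hw').2
        · exact h b hb')) (fun w hw b hb hx => hcov w (hsub₀ hw) b (Finset.mem_insert_of_mem hb) hx)
    have hmass : ∀ w, 0 ≤ mass P w := fun w => Finset.sum_nonneg fun z _ => hP w z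
    set m₁ := ∑ w ∈ A₁, mass P w with hm₁
    set m₀ := ∑ w ∈ A₀, mass P w with hm₀
    have hm₁0 : 0 ≤ m₁ := Finset.sum_nonneg fun w _ => hmass w
    have hm₀0 : 0 ≤ m₀ := Finset.sum_nonneg fun w _ => hmass w
    have hsplit : ∀ g : α → ℝ, ∑ w ∈ A, g w = ∑ w ∈ A₁, g w + ∑ w ∈ A₀, g w := fun g =>
      (Finset.sum_filter_add_sum_filter_not A _ g).symm
    -- chain rules
    have c1 : Hh P A = Hh P A₁ + Hh P A₀ + H2 m₁ m₀ := by
      unfold Hh H2
      rw [hsplit (fun w => eta (mass P w)), hsplit (fun w => mass P w)]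
      ring
    set X : β → ℝ := fun z => ∑ w ∈ A₁, P w z with hX
    set Y : β → ℝ := fun z => ∑ w ∈ A₀, P w z with hY
    have c2 : Hc P A = Hc P A₁ + Hc P A₀ + ∑ z, H2 (X z) (Y z) := by
      unfold Hc H2
      rw [← Finset.sum_add_distrib, ← Finset.sum_add_distrib]
      refine Finset.sum_congr rfl fun z _ => ?_
      rw [hsplit (fun w => eta (P w z)), hsplit (fun w => P w z)]
      ring
    have hY0 : ∀ z, o z a → Y z = 0 := by
      intro z hz
      refine Finset.sum_eq_zero fun w hw => ?_
      by_contra hne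
      exact (Finset.mem_filter.mp hw).2 (hsupp w z a hne hz)
    set s := ∑ w ∈ A₁, ∑ z ∈ Finset.univ.filter (fun z => o z a), P w z with hs
    have hs0 : 0 ≤ s := Finset.sum_nonneg fun w _ => Finset.sum_nonneg fun z _ => hP w z
    have hsm : s ≤ m₁ := by
      refine Finset.sum_le_sum fun w _ => ?_
      exact Finset.sum_le_sum_of_subset_of_nonneg (Finset.subset_univ _) (fun z _ _ => hP w z)
    have hus : u * m₁ ≤ s := by
      rw [hm₁, Finset.mul_sum]
      exact Finset.sum_le_sum fun w hw =>
        hcov w (hsub₁ hw) a (Finset.mem_insert_self _ _) (Finset.mem_filter.mp hw).2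
    have c3 : cnt o P (insert a L') A = cnt o P L' A₁ + cnt o P L' A₀ + s := by
      have hcard : ∀ z, (((insert a L').filter (fun b => o z b)).card : ℝ) =
          ((L'.filter (fun b => o z b)).card : ℝ) + (if o z a then 1 else 0) := by
        intro z
        rw [Finset.filter_insert]
        by_cases h : o z a
        · rw [if_pos h, if_pos h, Finset.card_insert_of_notMem]
          · push_cast
            ring
          · exact fun h' => ha (Finset.mem_filter.mp h').1
        · rw [if_neg h, if_neg h]
          simp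
      have h1 : ∀ w, ∑ z, P w z * (((insert a L').filter (fun b => o z b)).card : ℝ) =
          ∑ z, P w z * ((L'.filter (fun b => o z b)).card : ℝ) +
            ∑ z ∈ Finset.univ.filter (fun z => o z a), P w z := by
        intro w
        rw [Finset.sum_filter, ← Finset.sum_add_distrib]
        refine Finset.sum_congr rfl fun z _ => ?_
        rw [hcard z]
        by_cases h : o z a <;> simp [h, mul_add]
      have h2 : ∀ w ∈ A₀, ∑ z ∈ Finset.univ.filter (fun z => o z a), P w z = 0 := by
        intro w hw
        refine Finset.sum_eq_zero fun z hz => ?_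
        by_contra hne
        exact (Finset.mem_filter.mp hw).2 (hsupp w z a hne (Finset.mem_filter.mp hz).2)
      unfold cnt
      simp_rw [h1]
      rw [hsplit]
      rw [Finset.sum_add_distrib, Finset.sum_add_distrib, Finset.sum_eq_zero h2, hs]
      ring
    -- the key inequality
    have hX0 : ∀ z, 0 ≤ X z := fun z => Finset.sum_nonneg fun w _ => hP w z
    have hY0' : ∀ z, 0 ≤ Y z := fun z => Finset.sum_nonneg fun w _ => hP w z
    have hXs : ∑ z, X z = m₁ := by
      rw [hm₁]
      unfold mass
      rw [Finset.sum_comm]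
    have hYs : ∑ z, Y z = m₀ := by
      rw [hm₀]
      unfold mass
      rw [Finset.sum_comm]
    have hXon : ∑ z ∈ Finset.univ.filter (fun z => o z a), X z = s := by
      rw [hs]
      rw [Finset.sum_comm]
    have hXoff : ∑ z ∈ Finset.univ.filter (fun z => ¬ o z a), X z = m₁ - s := by
      have := Finset.sum_filter_add_sum_filter_not (Finset.univ : Finset β) (fun z => o z a) X
      rw [hXon, hXs] at this
      linarith
    have hYoff : ∑ z ∈ Finset.univ.filter (fun z => ¬ o z a), Y z = m₀ := by
      have := Finset.sum_filter_add_sum_filter_not (Finset.univ : Finset β) (fun z => o z a) Y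
      rw [hYs, Finset.sum_eq_zero (fun z hz => hY0 z (Finset.mem_filter.mp hz).2), zero_add] at this
      exact this
    have key1 : ∑ z, H2 (X z) (Y z) ≤ H2 (m₁ - s) m₀ := by
      have h1 := Finset.sum_filter_add_sum_filter_not (Finset.univ : Finset β) (fun z => o z a)
        (fun z => H2 (X z) (Y z))
      rw [Finset.sum_eq_zero (s := Finset.univ.filter (fun z => o z a))
        (fun z hz => by rw [hY0 z (Finset.mem_filter.mp hz).2, H2_right_zero]), zero_add] at h1
      rw [← h1]
      have h2 := H2_sum (Finset.univ.filter (fun z => ¬ o z a)) X Y (fun z _ => hX0 z)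
        (fun z _ => hY0' z)
      rwa [hXoff, hYoff] at h2
    have key2 : H2 (m₁ - s) m₀ ≤ (1 - u) * H2 m₁ m₀ + 2 * s := by
      rcases hm₁0.eq_or_lt with h | h
      · have hs' : s = 0 := by linarith
        rw [hs', ← h]
        simp [H2_left_zero]
      · set r := s / m₁ with hr
        have hr0 : 0 ≤ r := div_nonneg hs0 h.le
        have hr1 : r ≤ 1 := (div_le_one h).mpr hsm
        have hur : u ≤ r := (le_div_iff₀ h).mpr hus
        have e1 : m₁ - s = m₁ * (1 - r) := by
          rw [hr]
          field_simp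
        have e2 : r * m₁ = s := by
          rw [hr]
          field_simp
        have h2 := H2_scalar h.le hm₀0 hr0 hr1
        rw [← e1] at h2
        have h3 : (1 - r) * H2 m₁ m₀ ≤ (1 - u) * H2 m₁ m₀ :=
          mul_le_mul_of_nonneg_right (by linarith) (H2_nonneg h.le hm₀0)
        nlinarith
    rw [c1, c2, c3]
    nlinarith

end Thin

end Vale.Agent.Lib.P064t
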